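import Mathlib

namespace Vale.Agent.Results.P038.LocalSink

open Finset

/-- Seymour's second neighbourhood conjecture for oriented graphs in which every nonempty
out-neighbourhood contains a vertex with no out-neighbour inside that out-neighbourhood
(for instance when every out-neighbourhood induces an acyclic digraph, or when there is no
transitive triangle). -/
theorem result {V : Type*} [Fintype V] [DecidableEq V] [Nonempty V]
    (D : Digraph V) [DecidableRel D.Adj]
    (hasymm : ∀ u v, D.Adj u v → ¬ D.Adj v u)
    (hsink : ∀ v u, D.Adj v u → ∃ s, D.Adj v s ∧ ∀ w, D.Adj v w → ¬ D.Adj s w) :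
    ∃ v : V, (univ.filter fun u => D.Adj v u).card ≤
      (univ.filter fun w => w ≠ v ∧ ¬ D.Adj v w ∧ ∃ u, D.Adj v u ∧ D.Adj u w).card := by
  obtain ⟨v, -, hv⟩ := Finset.exists_min_image (univ : Finset V)
    (fun v => (univ.filter fun u => D.Adj v u).card) univ_nonempty
  refine ⟨v, ?_⟩
  by_cases hne : ∃ u, D.Adj v u
  · obtain ⟨u, hu⟩ := hne
    obtain ⟨s, hvs, hs⟩ := hsink v u hu
    refine (hv s (mem_univ s)).trans (card_le_card ?_)
    intro w hw
    simp only [mem_filter, mem_univ, true_and] at hw ⊢
    refine ⟨?_, ?_, s, hvs, hw⟩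
    · rintro rfl
      exact hasymm _ _ hvs hw
    · exact fun hvw => hs w hvw hw
  · have : (univ.filter fun u => D.Adj v u) = ∅ := by
      apply filter_eq_empty_iff.mpr
      intro u _ hu
      exact hne ⟨u, hu⟩
    rw [this]
    simp

end Vale.Agent.Results.P038.LocalSink
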